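import Vale.Agent.P297.H729.Quot

/-!
The algebra of the correspondence.
-/

set_option linter.unusedSectionVars false
set_option linter.style.haveILetI false

open CategoryTheory AlgebraicGeometry IntermediateField Polynomial

namespace Vale.Agent.P297.H729

open Vale.Agent.P297 Vale.Agent.P297.H839 Vale.Agent.P297.H516

section

variable {Ω : Type} [Field Ω] [Algebra ℂ Ω]

/-- the curve `c y² = T x (c x - T) (x - c T) (T x - c) (1 - c T x)` -/
def OnCurve (h : ℂ) (T x y : Ω) : Prop :=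
  algebraMap ℂ Ω h * y ^ 2 = T * x * (algebraMap ℂ Ω h * x - T) *
    (x - algebraMap ℂ Ω h * T) * (T * x - algebraMap ℂ Ω h) * (1 - algebraMap ℂ Ω h * T * x)

/-- the product of the two conjugate `x` -/
noncomputable def mm (h : ℂ) (T x : Ω) : Ω :=
  x * (algebraMap ℂ Ω h * x + T ^ 3 - (1 + algebraMap ℂ Ω h ^ 2) * T)

/-- the correspondence -/
def Star (h : ℂ) (T x z : Ω) : Prop :=
  quartPhi h T * (T * x - algebraMap ℂ Ω h) = T ^ 2 * quadP h z * mm h T x

/-- the product `y w` -/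
noncomputable def WW (h : ℂ) (T x z : Ω) : Ω :=
  T * quartPhi h T * quadP h z * (algebraMap ℂ Ω h * x - T) * (x - algebraMap ℂ Ω h * T) *
    (T * x * z - 1)

theorem star_a {h : ℂ} {T x z : Ω} (hs : Star h T x z) :
    (quartPhi h T - T ^ 4 * quadP h z) * (T * x - algebraMap ℂ Ω h) =
      T ^ 2 * quadP h z * ((algebraMap ℂ Ω h * x - T) * (x - algebraMap ℂ Ω h * T)) := by
  unfold Star mm at hs
  linear_combination hs

theorem star_b {h : ℂ} {T x z : Ω} (hs : Star h T x z) :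
    algebraMap ℂ Ω h * quartPhi h T * (T * x * z - 1) ^ 2 =
      T * x * (1 - algebraMap ℂ Ω h * T * x) * (quadP h z - z ^ 2 * quartPhi h T) := by
  unfold Star mm at hs
  unfold quartPhi quadP at *
  linear_combination (-1) * hs

theorem ww_sq {h : ℂ} {T x z : Ω} (hs : Star h T x z) :
    algebraMap ℂ Ω h * WW h T x z ^ 2 = branchD h T z * (T * x * (algebraMap ℂ Ω h * x - T) *
    (x - algebraMap ℂ Ω h * T) * (T * x - algebraMap ℂ Ω h) * (1 - algebraMap ℂ Ω h * T * x)) := by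
  have ha := star_a hs
  have hb := star_b hs
  unfold WW branchD
  generalize quartPhi h T = Φ at *
  generalize quadP h z = P at *
  generalize algebraMap ℂ Ω h = c at *
  linear_combination (T ^ 2 * Φ * P ^ 2 * (c * x - T) ^ 2 * (x - c * T) ^ 2) * hb -
    (Φ * P * (c * x - T) * (x - c * T) * T * x * (1 - c * T * x) * (P - z ^ 2 * Φ)) * ha

theorem quadP_conj (h : ℂ) (z : Ω) : quadP h (2 * algebraMap ℂ Ω h - z) = quadP h z := by
  unfold quadP
  ring

theorem star_conj {h : ℂ} {T x z : Ω} (hs : Star h T x z) :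
    Star h T x (2 * algebraMap ℂ Ω h - z) := by
  unfold Star at *
  rw [quadP_conj]
  exact hs

/-- Facts on independent pairs. -/
structure Facts (h : ℂ) (T x : Ω) : Prop where
  T0 : T ≠ 0
  x0 : x ≠ 0
  phi : quartPhi h T ≠ 0
  A : algebraMap ℂ Ω h * x - T ≠ 0
  B : x - algebraMap ℂ Ω h * T ≠ 0
  E : T * x - algebraMap ℂ Ω h ≠ 0
  G : 1 - algebraMap ℂ Ω h * T * x ≠ 0
  m : mm h T x ≠ 0
  P : quadP h x ≠ 0
  PP : quadP h x - x ^ 2 * quartPhi h T ≠ 0
  PH : quartPhi h T - T ^ 4 * quadP h x ≠ 0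
  R : (T ^ 2 - 1) * (T ^ 2 - algebraMap ℂ Ω h ^ 2) ≠ 0

theorem facts {h : ℂ} (h0 : h ≠ 0) {T x : Ω} (hT : AlgebraicIndependent ℂ ![T, x]) :
    Facts h T x := by
  have nz : ∀ (p : MvPolynomial (Fin 2) ℂ) (v : Fin 2 → ℂ), MvPolynomial.eval v p ≠ 0 →
      MvPolynomial.aeval ![T, x] p ≠ 0 := fun p v hv => aeval_ne_zero hT p v hv
  have hT0 : T ≠ 0 := by
    have := nz (MvPolynomial.X 0) ![1, 0] (by simp)
    simpa using this
  have hx0 : x ≠ 0 := by
    have := nz (MvPolynomial.X 1) ![0, 1] (by simp)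
    simpa using this
  have hm : algebraMap ℂ Ω h * x + T ^ 3 - (1 + algebraMap ℂ Ω h ^ 2) * T ≠ 0 := by
    have := nz (MvPolynomial.C h * MvPolynomial.X 1 + MvPolynomial.X 0 ^ 3 -
      (1 + MvPolynomial.C h ^ 2) * MvPolynomial.X 0) ![0, 1] (by simpa using h0)
    simpa using this
  refine ⟨hT0, hx0, ?_, ?_, ?_, ?_, ?_, mul_ne_zero hx0 hm, ?_, ?_, ?_, ?_⟩
  · have := nz (MvPolynomial.X 0 ^ 4 - (1 + MvPolynomial.C h ^ 2) * MvPolynomial.X 0 ^ 2 + 1)
      ![0, 0] (by simp)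
    simpa [quartPhi] using this
  · have := nz (MvPolynomial.C h * MvPolynomial.X 1 - MvPolynomial.X 0) ![1, 0] (by simp)
    simpa using this
  · have := nz (MvPolynomial.X 1 - MvPolynomial.C h * MvPolynomial.X 0) ![0, 1] (by simp)
    simpa using this
  · have := nz (MvPolynomial.X 0 * MvPolynomial.X 1 - MvPolynomial.C h) ![0, 0] (by simpa using h0)
    simpa using this
  · have := nz (1 - MvPolynomial.C h * MvPolynomial.X 0 * MvPolynomial.X 1) ![0, 0] (by simp)
    simpa using this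
  · have := nz (MvPolynomial.X 1 ^ 2 - 2 * MvPolynomial.C h * MvPolynomial.X 1 + 1)
      ![0, 0] (by simp)
    simpa [quadP] using this
  · have := nz (MvPolynomial.X 1 ^ 2 - 2 * MvPolynomial.C h * MvPolynomial.X 1 + 1 -
      MvPolynomial.X 1 ^ 2 * (MvPolynomial.X 0 ^ 4 - (1 + MvPolynomial.C h ^ 2) *
        MvPolynomial.X 0 ^ 2 + 1)) ![0, 0] (by simp)
    simpa [quadP, quartPhi] using this
  · have := nz (MvPolynomial.X 0 ^ 4 - (1 + MvPolynomial.C h ^ 2) *
        MvPolynomial.X 0 ^ 2 + 1 - MvPolynomial.X 0 ^ 4 *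
      (MvPolynomial.X 1 ^ 2 - 2 * MvPolynomial.C h * MvPolynomial.X 1 + 1)) ![0, 0] (by simp)
    simpa [quadP, quartPhi] using this
  · have := nz ((MvPolynomial.X 0 ^ 2 - 1) * (MvPolynomial.X 0 ^ 2 - MvPolynomial.C h ^ 2))
      ![0, 0] (by simpa using h0)
    simpa using this

theorem facts_y {h : ℂ} {T x y : Ω} (hf : Facts h T x) (hy : OnCurve h T x y) :
    y ≠ 0 := by
  rintro rfl
  unfold OnCurve at hy
  rw [zero_pow two_ne_zero, mul_zero] at hy
  exact mul_ne_zero (mul_ne_zero (mul_ne_zero (mul_ne_zero (mul_ne_zero hf.T0 hf.x0) hf.A) hf.B)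
    hf.E) hf.G hy.symm

theorem mem_range_left (T x : Ω) : T ∈ IntermediateField.adjoin ℂ (Set.range ![T, x]) :=
  IntermediateField.subset_adjoin _ _ ⟨0, rfl⟩

theorem mem_range_right (T x : Ω) : x ∈ IntermediateField.adjoin ℂ (Set.range ![T, x]) :=
  IntermediateField.subset_adjoin _ _ ⟨1, rfl⟩

theorem indep_of_alg {T x z : Ω} (hT : AlgebraicIndependent ℂ ![T, x])
    (h : IsAlgebraic (IntermediateField.adjoin ℂ (Set.range ![T, z])) x) :
    AlgebraicIndependent ℂ ![T, z] := by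
  apply indep_of_algebraic hT
  intro i
  fin_cases i
  · exact isAlgebraic_mem _ _ (mem_range_left T z)
  · exact h

/-- from the curve to the surface -/
theorem indep_xz {h : ℂ} (h0 : h ≠ 0) {T x z : Ω} (hT : AlgebraicIndependent ℂ ![T, x])
    (hs : Star h T x z) : AlgebraicIndependent ℂ ![T, z] := by
  apply indep_of_alg hT
  have hf := facts h0 hT
  set F := IntermediateField.adjoin ℂ (Set.range ![T, z]) with hF
  have hTF : T ∈ F := mem_range_left T z
  have hzF : z ∈ F := mem_range_right T z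
  have hcF : algebraMap ℂ Ω h ∈ F := F.algebraMap_mem h
  have h2F : (2 : Ω) ∈ F := ofNat_mem F 2
  have h1F : (1 : Ω) ∈ F := F.one_mem
  have hPF : quadP h z ∈ F :=
    add_mem (sub_mem (pow_mem hzF 2) (mul_mem (mul_mem h2F hcF) hzF)) h1F
  have hΦF : quartPhi h T ∈ F :=
    add_mem (sub_mem (pow_mem hTF 4) (mul_mem (add_mem h1F (pow_mem hcF 2)) (pow_mem hTF 2))) h1F
  refine alg_of_quad F (a := T ^ 2 * quadP h z * algebraMap ℂ Ω h)
    (b := T ^ 2 * quadP h z * (T ^ 3 - (1 + algebraMap ℂ Ω h ^ 2) * T) - quartPhi h T * T)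
    (c := quartPhi h T * algebraMap ℂ Ω h) ?_ ?_ ?_ ?_ ?_
  · exact mul_mem (mul_mem (pow_mem hTF 2) hPF) hcF
  · exact sub_mem (mul_mem (mul_mem (pow_mem hTF 2) hPF) (sub_mem (pow_mem hTF 3)
      (mul_mem (add_mem h1F (pow_mem hcF 2)) hTF))) (mul_mem hΦF hTF)
  · exact mul_mem hΦF hcF
  · intro h1
    have h2 : algebraMap ℂ Ω h ≠ 0 := by
      rw [Ne, map_eq_zero]; exact h0
    exact mul_ne_zero hf.phi h2 h1.2.2
  · unfold Star mm at hs
    linear_combination (-1) * hs

/-- from the surface to the curve -/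
theorem indep_zx {h : ℂ} (h0 : h ≠ 0) {T x z : Ω} (hT : AlgebraicIndependent ℂ ![T, z])
    (hs : Star h T x z) : AlgebraicIndependent ℂ ![T, x] := by
  apply indep_of_alg hT
  have hf := facts h0 hT
  set F := IntermediateField.adjoin ℂ (Set.range ![T, x]) with hF
  have hTF : T ∈ F := mem_range_left T x
  have hxF : x ∈ F := mem_range_right T x
  have hcF : algebraMap ℂ Ω h ∈ F := F.algebraMap_mem h
  have h2F : (2 : Ω) ∈ F := ofNat_mem F 2
  have h1F : (1 : Ω) ∈ F := F.one_mem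
  have hΦF : quartPhi h T ∈ F :=
    add_mem (sub_mem (pow_mem hTF 4) (mul_mem (add_mem h1F (pow_mem hcF 2)) (pow_mem hTF 2))) h1F
  have hmF : mm h T x ∈ F :=
    mul_mem hxF (sub_mem (add_mem (mul_mem hcF hxF) (pow_mem hTF 3))
      (mul_mem (add_mem h1F (pow_mem hcF 2)) hTF))
  refine alg_of_quad F (a := T ^ 2 * mm h T x)
    (b := - (2 * algebraMap ℂ Ω h * (T ^ 2 * mm h T x)))
    (c := T ^ 2 * mm h T x - quartPhi h T * (T * x - algebraMap ℂ Ω h)) ?_ ?_ ?_ ?_ ?_
  · exact mul_mem (pow_mem hTF 2) hmF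
  · exact neg_mem (mul_mem (mul_mem h2F hcF) (mul_mem (pow_mem hTF 2) hmF))
  · exact sub_mem (mul_mem (pow_mem hTF 2) hmF) (mul_mem hΦF (sub_mem (mul_mem hTF hxF) hcF))
  · rintro ⟨h1, -, h3⟩
    rw [h1, zero_sub, neg_eq_zero] at h3
    have h4 := (mul_eq_zero.1 h3).resolve_left hf.phi
    have h5 := (mul_eq_zero.1 h1).resolve_left (pow_ne_zero 2 hf.T0)
    unfold mm at h5
    apply hf.R
    have hc : algebraMap ℂ Ω h ≠ 0 := by
      rw [Ne, map_eq_zero]; exact h0
    have h6 : algebraMap ℂ Ω h * ((T ^ 2 - 1) * (T ^ 2 - algebraMap ℂ Ω h ^ 2)) = 0 := by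
      generalize algebraMap ℂ Ω h = c at *
      have hTx : T * x = c := sub_eq_zero.1 h4
      have e : c * ((T ^ 2 - 1) * (T ^ 2 - c ^ 2)) = T ^ 2 * (x * (c * x + T ^ 3 - (1 + c ^ 2) * T)) := by
        have e1 : T ^ 2 * (x * (c * x + T ^ 3 - (1 + c ^ 2) * T)) =
          c * (T * x) ^ 2 + (T * x) * T ^ 4 - (1 + c ^ 2) * (T * x) * T ^ 2 := by ring
        rw [e1, hTx]
        ring
      rw [e, h5, mul_zero]
    exact (mul_eq_zero.1 h6).resolve_left hc
  · unfold Star at hs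
    unfold quadP at hs
    linear_combination (-1) * hs

open scoped IntermediateField.algebraAdjoinAdjoin in
/-- Any two independent pairs are transcendence bases if one of them is. -/
theorem alg_of_indep {a b a' b' : Ω} (hab : AlgebraicIndependent ℂ ![a, b])
    (halg : ∀ u : Ω, IsAlgebraic (IntermediateField.adjoin ℂ (Set.range ![a, b])) u)
    (hab' : AlgebraicIndependent ℂ ![a', b']) :
    ∀ u : Ω, IsAlgebraic (IntermediateField.adjoin ℂ (Set.range ![a', b'])) u := by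
  have h1 : IsTranscendenceBasis ℂ ![a, b] := by
    haveI : Algebra.IsAlgebraic (IntermediateField.adjoin ℂ (Set.range ![a, b])) Ω := ⟨halg⟩
    haveI : Algebra.IsAlgebraic (Algebra.adjoin ℂ (Set.range ![a, b]))
        (IntermediateField.adjoin ℂ (Set.range ![a, b])) :=
      IsLocalization.isAlgebraic _ (nonZeroDivisors (Algebra.adjoin ℂ (Set.range ![a, b])))
    haveI : Algebra.IsAlgebraic (Algebra.adjoin ℂ (Set.range ![a, b])) Ω :=
      Algebra.IsAlgebraic.trans _ (IntermediateField.adjoin ℂ (Set.range ![a, b])) Ω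
    exact Algebra.IsAlgebraic.isTranscendenceBasis_of_le_trdeg_of_finite ℂ _
      hab.cardinalMk_le_trdeg
  have h2 := h1.cardinalMk_eq_trdeg
  have h3 := hab'.isTranscendenceBasis_of_trdeg_le_of_finite h2.symm.le
  haveI := h3.isAlgebraic_field
  exact fun u => Algebra.IsAlgebraic.isAlgebraic u

end

end Vale.Agent.P297.H729
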