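import Vale.Agent.P297.H729.Alg

/-!
Embeddings of the function field as points.
-/

set_option linter.unusedSectionVars false
set_option linter.style.haveILetI false

open CategoryTheory AlgebraicGeometry IntermediateField Polynomial

namespace Vale.Agent.P297.H729

open Vale.Agent.P297 Vale.Agent.P297.H839 Vale.Agent.P297.H516

theorem map_quadP {A B : Type} [Field A] [Algebra ℂ A] [Field B] [Algebra ℂ B] (φ : A →ₐ[ℂ] B)
    (h : ℂ) (z : A) : φ (quadP h z) = quadP h (φ z) := by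
  rw [quadP, quadP, map_add, map_sub, map_mul, map_mul, map_pow, map_one, AlgHom.commutes,
    map_ofNat]

theorem map_quartPhi {A B : Type} [Field A] [Algebra ℂ A] [Field B] [Algebra ℂ B]
    (φ : A →ₐ[ℂ] B) (h : ℂ) (t : A) : φ (quartPhi h t) = quartPhi h (φ t) := by
  simp [quartPhi]

theorem map_branchD {A B : Type} [Field A] [Algebra ℂ A] [Field B] [Algebra ℂ B]
    (φ : A →ₐ[ℂ] B) (h : ℂ) (t z : A) : φ (branchD h t z) = branchD h (φ t) (φ z) := by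
  simp [branchD, map_quadP, map_quartPhi]

section

variable {K Ω : Type} [Field K] [Algebra ℂ K] [Field Ω] [Algebra ℂ Ω]

theorem emb_ext {T₀ z₀ w₀ : K} (htop : IntermediateField.adjoin ℂ {T₀, z₀, w₀} = ⊤)
    {φ ψ : K →ₐ[ℂ] Ω} (h1 : φ T₀ = ψ T₀) (h2 : φ z₀ = ψ z₀) (h3 : φ w₀ = ψ w₀) : φ = ψ := by
  apply AlgHom.ext
  intro k
  have hk : k ∈ IntermediateField.adjoin ℂ ({T₀, z₀, w₀} : Set K) := by
    rw [htop]
    trivial
  induction hk using IntermediateField.adjoin_induction with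
  | mem x hx =>
    rcases hx with rfl | rfl | rfl
    · exact h1
    · exact h2
    · exact h3
  | algebraMap x => rw [AlgHom.commutes, AlgHom.commutes]
  | add x y _ _ hx hy => rw [map_add, map_add, hx, hy]
  | inv x _ hx => rw [map_inv₀, map_inv₀, hx]
  | mul x y _ _ hx hy => rw [map_mul, map_mul, hx, hy]

theorem exists_emb {h : ℂ} {T₀ z₀ w₀ : K} (hind : AlgebraicIndependent ℂ ![T₀, z₀])
    (hw : w₀ ^ 2 = branchD h T₀ z₀) (htop : IntermediateField.adjoin ℂ {T₀, z₀, w₀} = ⊤)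
    (hwF : w₀ ∉ IntermediateField.adjoin ℂ (Set.range ![T₀, z₀])) {T z w : Ω}
    (hTz : AlgebraicIndependent ℂ ![T, z]) (hw' : w ^ 2 = branchD h T z) :
    ∃ φ : K →ₐ[ℂ] Ω, φ T₀ = T ∧ φ z₀ = z ∧ φ w₀ = w := by
  obtain ⟨φ₀, hφ₀⟩ := exists_tau (![T₀, z₀]) hind (![T, z]) (fun p hp => by
    rw [isUnit_iff_ne_zero]
    intro h0
    exact hp ((algebraicIndependent_iff.1 hTz) p h0))
  let F := IntermediateField.adjoin ℂ (Set.range ![T₀, z₀])
  have hT : T₀ ∈ IntermediateField.adjoin ℂ (Set.range ![T₀, z₀]) := mem_range_left T₀ z₀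
  have hz : z₀ ∈ IntermediateField.adjoin ℂ (Set.range ![T₀, z₀]) := mem_range_right T₀ z₀
  have hφT : φ₀ ⟨T₀, hT⟩ = T := hφ₀ 0
  have hφz : φ₀ ⟨z₀, hz⟩ = z := hφ₀ 1
  have hval : (branchD h (⟨T₀, hT⟩ : F) ⟨z₀, hz⟩ : F).1 = branchD h T₀ z₀ :=
    map_branchD F.val h ⟨T₀, hT⟩ ⟨z₀, hz⟩
  have hy : w₀ ^ 2 ∈ F := by
    rw [hw, ← hval]
    exact (branchD h (⟨T₀, hT⟩ : F) ⟨z₀, hz⟩ : F).2
  obtain ⟨Θ, hΘ, hΘw⟩ := exists_theta F w₀ hy hwF
    (exists_quad F w₀ hy {T₀, z₀, w₀} (by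
      rintro x (rfl | rfl | rfl)
      · exact Or.inl hT
      · exact Or.inl hz
      · exact Or.inr rfl) htop) φ₀ w (by
      have e : (⟨w₀ ^ 2, hy⟩ : F) = branchD h (⟨T₀, hT⟩ : F) ⟨z₀, hz⟩ :=
        Subtype.ext (hw.trans hval.symm)
      rw [e, map_branchD, hφT, hφz, hw'])
  refine ⟨Θ, ?_, ?_, hΘw⟩
  · rw [← hφT]
    exact hΘ ⟨T₀, hT⟩
  · rw [← hφz]
    exact hΘ ⟨z₀, hz⟩

variable [Algebra K Ω] [IsScalarTower ℂ K Ω]

open Classical in
/-- The embedding with given values. -/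
noncomputable def emb (T₀ z₀ w₀ : K) (T z w : Ω) : K →ₐ[ℂ] Ω :=
  if h : ∃ φ : K →ₐ[ℂ] Ω, φ T₀ = T ∧ φ z₀ = z ∧ φ w₀ = w then h.choose
  else IsScalarTower.toAlgHom ℂ K Ω

/-- The data of the field. -/
structure Data (h : ℂ) (T₀ z₀ w₀ : K) : Prop where
  ind : AlgebraicIndependent ℂ ![T₀, z₀]
  sq : w₀ ^ 2 = branchD h T₀ z₀
  top : IntermediateField.adjoin ℂ {T₀, z₀, w₀} = ⊤
  notMem : w₀ ∉ IntermediateField.adjoin ℂ (Set.range ![T₀, z₀])

variable {h : ℂ} {T₀ z₀ w₀ : K}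

theorem emb_spec (hd : Data h T₀ z₀ w₀) {T z w : Ω} (hTz : AlgebraicIndependent ℂ ![T, z])
    (hw' : w ^ 2 = branchD h T z) : emb T₀ z₀ w₀ T z w T₀ = T ∧ emb T₀ z₀ w₀ T z w z₀ = z ∧
      emb T₀ z₀ w₀ T z w w₀ = w := by
  have h1 := exists_emb hd.ind hd.sq hd.top hd.notMem hTz hw'
  unfold emb
  rw [dif_pos h1]
  exact h1.choose_spec

theorem emb_eq (hd : Data h T₀ z₀ w₀) {T z w : Ω} (hTz : AlgebraicIndependent ℂ ![T, z])
    (hw' : w ^ 2 = branchD h T z) (φ : K →ₐ[ℂ] Ω) (h1 : φ T₀ = T) (h2 : φ z₀ = z)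
    (h3 : φ w₀ = w) : emb T₀ z₀ w₀ T z w = φ := by
  obtain ⟨e1, e2, e3⟩ := emb_spec (Ω := Ω) hd hTz hw'
  exact emb_ext hd.top (e1.trans h1.symm) (e2.trans h2.symm) (e3.trans h3.symm)

/-- The point with given coordinates. -/
noncomputable def br (T₀ z₀ w₀ : K) (T z w : Ω) : (K →ₐ[ℂ] Ω) →₀ ℤ :=
  Finsupp.single (emb T₀ z₀ w₀ T z w) 1

theorem indep_map {T z : Ω} (g : Ω ≃ₐ[ℂ] Ω) (hTz : AlgebraicIndependent ℂ ![T, z]) :
    AlgebraicIndependent ℂ ![g T, g z] := by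
  have h1 := hTz.map' (f := g.toAlgHom) g.injective
  have h2 : (⇑g.toAlgHom ∘ ![T, z]) = ![g T, g z] := by
    funext i
    fin_cases i <;> rfl
  rwa [h2] at h1

theorem sq_map {T z w : Ω} (g : Ω ≃ₐ[ℂ] Ω) (hw' : w ^ 2 = branchD h T z) :
    (g w) ^ 2 = branchD h (g T) (g z) := by
  have h1 := congrArg g.toAlgHom hw'
  rw [map_pow, map_branchD] at h1
  exact h1

theorem map_br (hd : Data h T₀ z₀ w₀) {T z w : Ω} (g : Ω ≃ₐ[ℂ] Ω) (hgT : g T = T)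
    (hTz : AlgebraicIndependent ℂ ![T, z]) (hw' : w ^ 2 = branchD h T z) :
    Finsupp.mapDomain (fun φ : K →ₐ[ℂ] Ω => g.toAlgHom.comp φ) (br T₀ z₀ w₀ T z w) =
      br T₀ z₀ w₀ T (g z) (g w) := by
  unfold br
  rw [Finsupp.mapDomain_single]
  have h1 := indep_map g hTz
  have h2 := sq_map g hw'
  rw [hgT] at h1 h2
  obtain ⟨e1, e2, e3⟩ := emb_spec (Ω := Ω) hd hTz hw'
  rw [emb_eq hd h1 h2 (g.toAlgHom.comp (emb T₀ z₀ w₀ T z w))]
  · change g (emb T₀ z₀ w₀ T z w T₀) = T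
    rw [e1, hgT]
  · change g (emb T₀ z₀ w₀ T z w z₀) = g z
    rw [e2]
  · change g (emb T₀ z₀ w₀ T z w w₀) = g w
    rw [e3]

/-- the hyperelliptic relation -/
theorem br_add_neg (hd : Data h T₀ z₀ w₀) {T z w : Ω}
    (halg : ∀ z : Ω, AlgebraicIndependent ℂ ![T, z] →
      ∀ u : Ω, IsAlgebraic (IntermediateField.adjoin ℂ (Set.range ![T, z])) u)
    (hTz : AlgebraicIndependent ℂ ![T, z]) (hw' : w ^ 2 = branchD h T z) :
    br T₀ z₀ w₀ T z w + br T₀ z₀ w₀ T z (-w) ∈ stableRelations K Ω := by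
  apply AddSubgroup.subset_closure
  refine ⟨IntermediateField.adjoin ℂ (Set.range ![T, z]), ⟨2, ![T, z], hTz, rfl⟩,
    ⟨halg z hTz⟩, ?_⟩
  intro g hg
  have hgT : g T = T := hg T (mem_range_left T z)
  have hgz : g z = z := hg z (mem_range_right T z)
  have hw'' : (-w) ^ 2 = branchD h T z := by rw [neg_sq]; exact hw'
  have e1 := map_br hd g hgT hTz hw'
  have e2 := map_br hd g hgT hTz hw''
  rw [Finsupp.mapDomain_add, e1, e2, hgz, map_neg]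
  have h1 := sq_map g hw'
  rw [hgT, hgz, ← hw'] at h1
  rcases sq_eq_sq_iff_eq_or_eq_neg.1 h1 with h2 | h2
  · rw [h2]
  · rw [h2, neg_neg, add_comm]

end

end Vale.Agent.P297.H729
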