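import Vale.Agent.P297.H729.Rel
import Vale.Agent.P297.H839.Points

/-!
Bloch's conjecture for the family of genus 2 pencils with `(4,4)`-split Jacobian.
-/

set_option linter.unusedSectionVars false
set_option linter.style.haveILetI false

open CategoryTheory AlgebraicGeometry IntermediateField Polynomial

namespace Vale.Agent.P297.H729

open Vale.Agent.P297 Vale.Agent.P297.H839 Vale.Agent.P297.H516

theorem branchD_mem {K : Type} [Field K] [Algebra ℂ K] (h : ℂ) (F : IntermediateField ℂ K)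
    {t z : K} (ht : t ∈ F) (hz : z ∈ F) : branchD h t z ∈ F := by
  have h1 : (branchD h (⟨t, ht⟩ : F) ⟨z, hz⟩ : F).1 = branchD h t z :=
    map_branchD F.val h ⟨t, ht⟩ ⟨z, hz⟩
  rw [← h1]
  exact (branchD h (⟨t, ht⟩ : F) ⟨z, hz⟩ : F).2

/-- The relation in an algebraic closure. -/
theorem four_rel {h : ℂ} (h0 : h ≠ 0) (h1 : h ^ 2 ≠ 1) {K : Type} [Field K] [Algebra ℂ K]
    {T₀ z₀ w₀ : K} (hind : AlgebraicIndependent ℂ ![T₀, z₀]) (hw : w₀ ^ 2 = branchD h T₀ z₀)
    (htop : IntermediateField.adjoin ℂ {T₀, z₀, w₀} = ⊤) (Ω : Type) [Field Ω] [Algebra ℂ Ω]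
    [IsAlgClosed Ω] [Algebra K Ω] [IsScalarTower ℂ K Ω] [Algebra.IsAlgebraic K Ω] :
    Finsupp.single (IsScalarTower.toAlgHom ℂ K Ω) ((2 : ℤ) ^ 2) ∈ stableRelations K Ω := by
  let ι : K →ₐ[ℂ] Ω := IsScalarTower.toAlgHom ℂ K Ω
  have hTz : AlgebraicIndependent ℂ ![ι T₀, ι z₀] := by
    have h2 := hind.map' (f := ι) ι.toRingHom.injective
    have h3 : (⇑ι ∘ ![T₀, z₀]) = ![ι T₀, ι z₀] := by
      funext i
      fin_cases i <;> rfl
    rwa [h3] at h2
  have hw' : (ι w₀) ^ 2 = branchD h (ι T₀) (ι z₀) := by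
    rw [← map_pow, hw, map_branchD]
  set L := IntermediateField.adjoin ℂ (Set.range ![ι T₀, ι z₀]) with hL
  have hTL : ι T₀ ∈ L := mem_range_left _ _
  have hzL : ι z₀ ∈ L := mem_range_right _ _
  have hw2L : (ι w₀) ^ 2 ∈ L := by
    rw [hw']
    exact branchD_mem h L hTL hzL
  have halg0 : ∀ u : Ω, IsAlgebraic L u := by
    intro u
    let M := algebraicClosure L Ω
    have hM : ∀ k : K, ι k ∈ M := by
      intro k
      have hk : k ∈ IntermediateField.adjoin ℂ ({T₀, z₀, w₀} : Set K) := by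
        rw [htop]
        trivial
      induction hk using IntermediateField.adjoin_induction with
      | mem x hx =>
        rcases hx with rfl | rfl | rfl
        · exact mem_algebraicClosure_iff.2 (isAlgebraic_mem _ _ hTL)
        · exact mem_algebraicClosure_iff.2 (isAlgebraic_mem _ _ hzL)
        · exact mem_algebraicClosure_iff.2 (isAlgebraic_sq _ _ (isAlgebraic_mem _ _ hw2L))
      | algebraMap x =>
        rw [AlgHom.commutes]
        exact mem_algebraicClosure_iff.2 (isAlgebraic_mem _ _ (L.algebraMap_mem x))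
      | add x y _ _ hx hy => rw [map_add]; exact add_mem hx hy
      | inv x _ hx => rw [map_inv₀]; exact inv_mem hx
      | mul x y _ _ hx hy => rw [map_mul]; exact mul_mem hx hy
    obtain ⟨p, hp0, hp⟩ := Algebra.IsAlgebraic.isAlgebraic (R := K) u
    let g : K →+* M := (algebraMap K Ω).codRestrict M.toSubring hM
    have h2 : IsAlgebraic M u := by
      refine ⟨p.map g, (Polynomial.map_ne_zero_iff g.injective).2 hp0, ?_⟩
      rw [Polynomial.aeval_def, Polynomial.eval₂_map]
      exact hp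
    haveI : Algebra.IsAlgebraic L M := algebraicClosure.isAlgebraic L Ω
    exact h2.restrictScalars L
  by_cases hwF : w₀ ∈ IntermediateField.adjoin ℂ (Set.range ![T₀, z₀])
  · have hone : Finsupp.single ι (1 : ℤ) ∈ stableRelations K Ω := by
      apply AddSubgroup.subset_closure
      refine ⟨L, ⟨2, _, hTz, hL⟩, ⟨halg0⟩, fun g hg => ?_⟩
      rw [Finsupp.mapDomain_single]
      congr 1
      have hwL : ι w₀ ∈ L := by
        have h2 : ι w₀ ∈ (IntermediateField.adjoin ℂ (Set.range ![T₀, z₀])).map ι :=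
          ⟨w₀, hwF, rfl⟩
        rw [IntermediateField.adjoin_map, ← Set.range_comp] at h2
        have h3 : (⇑ι ∘ ![T₀, z₀]) = ![ι T₀, ι z₀] := by
          funext i
          fin_cases i <;> rfl
        rw [h3] at h2
        exact h2
      exact emb_ext htop (hg _ hTL) (hg _ hzL) (hg _ hwL)
    have h2 := AddSubgroup.zsmul_mem _ hone ((2 : ℤ) ^ 2)
    rw [Finsupp.smul_single, smul_eq_mul, mul_one] at h2
    exact h2
  · have hd : Data h T₀ z₀ w₀ := ⟨hind, hw, htop, hwF⟩
    have h2 := four_br (T₀ := T₀) (z₀ := z₀) (w₀ := w₀) hd h0 h1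
      (fun z hz => alg_of_indep hTz halg0 hz) hTz hw'
    unfold br at h2
    rw [emb_eq hd hTz hw' ι rfl rfl rfl, Finsupp.smul_single, smul_eq_mul, mul_one] at h2
    exact h2

/-- **Bloch's conjecture for the family.** -/
theorem four_split {h : ℂ} (h0 : h ≠ 0) (h1 : h ^ 2 ≠ 1) {K : Type} [Field K] [Algebra ℂ K]
    {t z w : K} (hind : AlgebraicIndependent ℂ ![t, z]) (hw : w ^ 2 = branchD h t z)
    (htop : IntermediateField.adjoin ℂ {t, z, w} = ⊤) : PointsEquivalent K := by
  intro S _ f _ hS x y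
  refine criterion_stable_one (Ω := AlgebraicClosure K) ?_ 2
    (four_rel h0 h1 hind hw htop (AlgebraicClosure K)) f hS x y
  refine ⟨IntermediateField.adjoin ℂ (Set.range ![t, z]), w, ⟨2, _, hind, rfl⟩, ?_, ?_⟩
  · rw [hw]
    exact branchD_mem h _ (mem_range_left t z) (mem_range_right t z)
  · rw [eq_top_iff, ← htop, IntermediateField.adjoin_le_iff]
    rintro a (rfl | rfl | rfl)
    · exact IntermediateField.subset_adjoin _ _ (Or.inl (mem_range_left a z))
    · exact IntermediateField.subset_adjoin _ _ (Or.inl (mem_range_right t a))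
    · exact IntermediateField.subset_adjoin _ _ (Or.inr rfl)

end Vale.Agent.P297.H729
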