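import Vale.Agent.P297.H839.Defs

/-!
The family of genus 2 pencils with `(4,4)`-split Jacobian.
-/

namespace Vale.Agent.P297.H729

variable {N : Type} [Field N] [Algebra ℂ N]

/-- `P = z² - 2hz + 1`. -/
noncomputable def quadP (h : ℂ) (z : N) : N := z ^ 2 - 2 * algebraMap ℂ N h * z + 1

/-- `Φ = t⁴ - (1 + h²) t² + 1`. -/
noncomputable def quartPhi (h : ℂ) (t : N) : N := t ^ 4 - (1 + algebraMap ℂ N h ^ 2) * t ^ 2 + 1

/-- `D = Φ P (P - z² Φ) (Φ - t⁴ P)`. -/
noncomputable def branchD (h : ℂ) (t z : N) : N :=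
  quartPhi h t * quadP h z * (quadP h z - z ^ 2 * quartPhi h t) *
    (quartPhi h t - t ^ 4 * quadP h z)

end Vale.Agent.P297.H729
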