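import Vale.Agent.P297.H729.Stable
import Vale.Agent.P297.H729.FourDefs
import Vale.Agent.P297.H964.Tsen

/-!
The rational elliptic quotients.
-/

set_option linter.unusedSectionVars false
set_option linter.style.haveILetI false

open CategoryTheory AlgebraicGeometry IntermediateField Polynomial

namespace Vale.Agent.P297.H729

open Vale.Agent.P297 Vale.Agent.P297.H839 Vale.Agent.P297.H516

section

variable {Ω : Type} [Field Ω] [Algebra ℂ Ω]

theorem alg_trans (F L : IntermediateField ℂ Ω) (hF : ∀ z : Ω, IsAlgebraic F z)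
    (h : ∀ x ∈ F, IsAlgebraic L x) (z : Ω) : IsAlgebraic L z := by
  obtain ⟨p, hp0, hp⟩ := hF z
  let M := algebraicClosure L Ω
  have hM : ∀ x : F, (x : Ω) ∈ M := fun x => mem_algebraicClosure_iff.2 (h x.1 x.2)
  let g : F →+* M := (algebraMap F Ω).codRestrict M.toSubring hM
  have hg : Function.Injective g := g.injective
  have h1 : IsAlgebraic M z := by
    refine ⟨p.map g, (Polynomial.map_ne_zero_iff hg).2 hp0, ?_⟩
    rw [Polynomial.aeval_def, Polynomial.eval₂_map]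
    exact hp
  haveI : Algebra.IsAlgebraic L M := algebraicClosure.isAlgebraic L Ω
  exact h1.restrictScalars L

theorem alg_of_gens2 (L : IntermediateField ℂ Ω) {u v : Ω}
    (halg : ∀ z : Ω, IsAlgebraic (IntermediateField.adjoin ℂ (Set.range ![u, v])) z)
    (hu : IsAlgebraic L u) (hv : IsAlgebraic L v) (z : Ω) : IsAlgebraic L z := by
  refine alg_trans _ L halg ?_ z
  have h1 : IntermediateField.adjoin ℂ (Set.range ![u, v]) ≤
      (algebraicClosure L Ω).restrictScalars ℂ := by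
    rw [IntermediateField.adjoin_le_iff]
    rintro _ ⟨i, rfl⟩
    fin_cases i
    · exact mem_algebraicClosure_iff.2 hu
    · exact mem_algebraicClosure_iff.2 hv
  intro x hx
  exact mem_algebraicClosure_iff.1 (h1 hx)

theorem alg_of_quad (F : IntermediateField ℂ Ω) {a b c u : Ω} (ha : a ∈ F) (hb : b ∈ F)
    (hc : c ∈ F) (hne : ¬ (a = 0 ∧ b = 0 ∧ c = 0)) (h : a * u ^ 2 + b * u + c = 0) :
    IsAlgebraic F u := by
  let p : F[X] := C (⟨a, ha⟩ : F) * X ^ 2 + C (⟨b, hb⟩ : F) * X + C (⟨c, hc⟩ : F)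
  refine ⟨p, ?_, ?_⟩
  · intro h0
    apply hne
    have e2 : p.coeff 2 = ⟨a, ha⟩ := by simp [p]
    have e1 : p.coeff 1 = ⟨b, hb⟩ := by simp [p]
    have e0 : p.coeff 0 = ⟨c, hc⟩ := by simp [p]
    rw [h0, coeff_zero] at e2 e1 e0
    exact ⟨(congrArg Subtype.val e2).symm, (congrArg Subtype.val e1).symm,
      (congrArg Subtype.val e0).symm⟩
  · simp only [p, map_add, map_mul, map_pow, aeval_C, aeval_X]
    exact h

/-- The field of the elliptic quotient is rational; the cover is the obvious one. -/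
theorem exists_rational_quotient (h : ℂ) (h0 : h ≠ 0) (h1 : h ^ 2 ≠ 1) {T ξ y : Ω}
    (hT : AlgebraicIndependent ℂ ![T, ξ])
    (halg : ∀ z : Ω, IsAlgebraic (IntermediateField.adjoin ℂ (Set.range ![T, ξ])) z)
    (hy : algebraMap ℂ Ω h * y ^ 2 = T * ξ * (algebraMap ℂ Ω h * ξ - T) *
      (ξ - algebraMap ℂ Ω h * T) * (T * ξ - algebraMap ℂ Ω h) *
      (1 - algebraMap ℂ Ω h * T * ξ)) :
    ∃ L : IntermediateField ℂ Ω, IsRational L ∧ Algebra.IsAlgebraic L Ω ∧
      ∀ g : Ω ≃ₐ[ℂ] Ω, (∀ x ∈ L, g x = x) →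
        g T = T ∧ ((g ξ = ξ ∧ g y = y) ∨ (g ξ = 1 / ξ ∧ g y = y / ξ ^ 3)) := by
  set c := algebraMap ℂ Ω h with hc
  have hc0 : c ≠ 0 := by
    rw [hc, Ne, map_eq_zero]; exact h0
  have hc1 : c ^ 2 - 1 ≠ 0 := by
    rw [hc, ← map_pow, ← map_one (algebraMap ℂ Ω), ← map_sub, Ne, map_eq_zero, sub_eq_zero]
    exact h1
  have nz : ∀ (p : MvPolynomial (Fin 2) ℂ) (v : Fin 2 → ℂ), MvPolynomial.eval v p ≠ 0 →
      MvPolynomial.aeval ![T, ξ] p ≠ 0 := fun p v hv => aeval_ne_zero hT p v hv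
  have hT0 : T ≠ 0 := by
    have := nz (MvPolynomial.X 0) ![1, 0] (by simp)
    simpa using this
  have hξ0 : ξ ≠ 0 := by
    have := nz (MvPolynomial.X 1) ![0, 1] (by simp)
    simpa using this
  have hξ1 : ξ + 1 ≠ 0 := by
    have := nz (MvPolynomial.X 1 + 1) ![0, 0] (by simp)
    simpa using this
  have hcT : 1 + c * T ≠ 0 := by
    have := nz (1 + MvPolynomial.C h * MvPolynomial.X 0) ![0, 0] (by simp)
    simpa [MvPolynomial.algebraMap_eq] using this
  have hcT2 : 1 + T * c ≠ 0 := by rwa [mul_comm]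
  have hA : ξ - c * T ≠ 0 := by
    have := nz (MvPolynomial.X 1 - MvPolynomial.C h * MvPolynomial.X 0) ![0, 1] (by simp)
    simpa using this
  have hB : 1 - c * T * ξ ≠ 0 := by
    have := nz (1 - MvPolynomial.C h * MvPolynomial.X 0 * MvPolynomial.X 1) ![0, 0] (by simp)
    simpa using this
  have hcinv : 1 - c * ((c + T) / (1 + c * T)) ≠ 0 := by
    have e : 1 - c * ((c + T) / (1 + c * T)) = - (c ^ 2 - 1) / (1 + c * T) := by
      field_simp
      ring
    rw [e]
    exact div_ne_zero (neg_ne_zero.2 hc1) hcT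
  set ν := c * T * (ξ + 1) ^ 2 / (ξ * (1 + c * T) ^ 2) with hν
  set τ := (c + T) / (1 + c * T) with hτ
  set Y := y * c * (ξ + 1) / (ξ ^ 2 * (1 + c * T) ^ 3) with hY
  have hν0 : ν ≠ 0 := by
    rw [hν]
    exact div_ne_zero (mul_ne_zero (mul_ne_zero hc0 hT0) (pow_ne_zero 2 hξ1))
      (mul_ne_zero hξ0 (pow_ne_zero 2 hcT))
  have hν1 : ν - 1 ≠ 0 := by
    have e : ν - 1 = - ((ξ - c * T) * (1 - c * T * ξ)) / (ξ * (1 + c * T) ^ 2) := by
      rw [hν]
      field_simp
      ring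
    rw [e]
    exact div_ne_zero (neg_ne_zero.2 (mul_ne_zero hA hB)) (mul_ne_zero hξ0 (pow_ne_zero 2 hcT))
  have hcon : Y ^ 2 = ν * (ν - 1) * τ ^ 2 + 0 * τ + - (ν ^ 2 * (ν - 1)) := by
    have e1 : Y ^ 2 = (c * y ^ 2) * c * (ξ + 1) ^ 2 / (ξ ^ 4 * (1 + c * T) ^ 6) := by
      rw [hY]
      field_simp
    rw [e1, hy, hν, hτ]
    field_simp
    ring
  have hτ' : τ * (1 + c * T) = c + T := by
    rw [hτ]
    field_simp
  have hTτ : T = (τ - c) / (1 - c * τ) := by
    rw [eq_div_iff hcinv]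
    linear_combination -hτ'
  have hquad : (c * T) * ξ ^ 2 + (2 * (c * T) - ν * (1 + c * T) ^ 2) * ξ + c * T = 0 := by
    rw [hν]
    field_simp
    ring
  set L := IntermediateField.adjoin ℂ ({ν, τ, Y} : Set Ω) with hL
  have hνL : ν ∈ L := IntermediateField.subset_adjoin _ _ (by simp)
  have hτL : τ ∈ L := IntermediateField.subset_adjoin _ _ (by simp)
  have hYL : Y ∈ L := IntermediateField.subset_adjoin _ _ (by simp)
  -- `T` and `ξ` are algebraic over every field that contains `ν` and `τ`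
  have hmem : ∀ F : IntermediateField ℂ Ω, ν ∈ F → τ ∈ F → T ∈ F ∧ IsAlgebraic F ξ := by
    intro F h2 h3
    have hcF : c ∈ F := F.algebraMap_mem h
    have hTF : T ∈ F := by
      rw [hTτ]
      exact div_mem (sub_mem h3 hcF) (sub_mem F.one_mem (mul_mem hcF h3))
    have h2F : (2 : Ω) ∈ F := ofNat_mem F 2
    refine ⟨hTF, alg_of_quad F (mul_mem hcF hTF)
      (sub_mem (mul_mem h2F (mul_mem hcF hTF))
        (mul_mem h2 (pow_mem (add_mem F.one_mem (mul_mem hcF hTF)) 2)))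
      (mul_mem hcF hTF) (fun h4 => mul_ne_zero hc0 hT0 h4.1) hquad⟩
  have hind : AlgebraicIndependent ℂ ![ν, τ] := by
    apply indep_of_algebraic hT
    obtain ⟨h2, h3⟩ := hmem (IntermediateField.adjoin ℂ (Set.range ![ν, τ]))
      (IntermediateField.subset_adjoin _ _ ⟨0, rfl⟩) (IntermediateField.subset_adjoin _ _ ⟨1, rfl⟩)
    intro i
    fin_cases i
    · exact isAlgebraic_mem _ _ h2
    · exact h3
  have hνs : ν ∈ ℂ⟮ν⟯ := IntermediateField.mem_adjoin_simple_self ℂ ν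
  obtain ⟨m, hm⟩ := Vale.Agent.P297.H964.exists_conic_param (u := ν) (v := τ) (z := Y) (a := ν * (ν - 1))
    (b := 0) (c := - (ν ^ 2 * (ν - 1))) hind
    (mul_mem hνs (sub_mem hνs (ℂ⟮ν⟯.one_mem))) (ℂ⟮ν⟯.zero_mem)
    (neg_mem (mul_mem (pow_mem hνs 2) (sub_mem hνs (ℂ⟮ν⟯.one_mem))))
    (by
      have e : (0 : Ω) ^ 2 - 4 * (ν * (ν - 1)) * - (ν ^ 2 * (ν - 1)) =
        4 * (ν ^ 3 * (ν - 1) ^ 2) := by ring
      rw [e]
      haveI : CharZero Ω := charZero_of_injective_algebraMap (algebraMap ℂ Ω).injective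
      have h4 : (4 : Ω) ≠ 0 := by norm_num
      exact mul_ne_zero h4 (mul_ne_zero (pow_ne_zero 3 hν0) (pow_ne_zero 2 hν1)))
    hcon
  obtain ⟨hTL, hξL⟩ := hmem L hνL hτL
  refine ⟨L, ?_, ⟨alg_of_gens2 L halg (isAlgebraic_mem _ _ hTL) hξL⟩, ?_⟩
  · apply isRational_of_gens hT L ![ν, m]
    · rw [hL, ← hm]
      congr 1
      ext a
      simp only [Set.mem_insert_iff, Set.mem_singleton_iff, Set.mem_range]
      constructor
      · rintro (rfl | rfl)
        · exact ⟨0, rfl⟩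
        · exact ⟨1, rfl⟩
      · rintro ⟨i, rfl⟩
        fin_cases i
        · left; rfl
        · right; rfl
    · intro i
      fin_cases i
      · exact isAlgebraic_mem _ _ hTL
      · exact hξL
  · intro g hg
    have hgν := hg ν hνL
    have hgτ := hg τ hτL
    have hgY := hg Y hYL
    have hgT : g T = T := hg T hTL
    have hgc : g c = c := g.commutes h
    refine ⟨hgT, ?_⟩
    have hgξ0 : g ξ ≠ 0 := by
      rw [Ne, map_eq_zero]; exact hξ0
    have hgquad : (c * T) * (g ξ) ^ 2 + (2 * (c * T) - ν * (1 + c * T) ^ 2) * g ξ + c * T = 0 := by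
      have h2 := congrArg g hquad
      simp only [map_add, map_sub, map_mul, map_pow, hgc, hgT, hgν, map_one, map_zero,
        map_ofNat] at h2
      exact h2
    have hprod : (g ξ - ξ) * (ξ * g ξ - 1) = 0 := by
      have h2 : (c * T) * ((g ξ - ξ) * (ξ * g ξ - 1)) = 0 := by
        linear_combination ξ * hgquad - g ξ * hquad
      exact (mul_eq_zero.1 h2).resolve_left (mul_ne_zero hc0 hT0)
    have hYy : ∀ x y' : Ω, x ≠ 0 → x + 1 ≠ 0 → y' * c * (x + 1) / (x ^ 2 * (1 + c * T) ^ 3) = Y →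
        y' = Y * x ^ 2 * (1 + c * T) ^ 3 / (c * (x + 1)) := by
      intro x y' hx hx1 h2
      rw [← h2]
      field_simp
    have hgY' : g y * c * (g ξ + 1) / ((g ξ) ^ 2 * (1 + c * T) ^ 3) = Y := by
      rw [← hgY, hY]
      simp only [map_div₀, map_mul, map_add, map_pow, hgc, hgT, map_one]
    have hgξ1 : g ξ + 1 ≠ 0 := by
      intro h2
      apply hξ1
      apply g.injective
      rw [map_add, map_one, map_zero]
      exact h2
    have hgy := hYy _ _ hgξ0 hgξ1 hgY'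
    rcases mul_eq_zero.1 hprod with h2 | h2
    · left
      have h3 : g ξ = ξ := sub_eq_zero.1 h2
      refine ⟨h3, ?_⟩
      rw [hgy, h3, hY]
      field_simp
    · right
      have h3 : g ξ = 1 / ξ := by
        rw [eq_div_iff hξ0, mul_comm]
        exact sub_eq_zero.1 h2
      refine ⟨h3, ?_⟩
      rw [hgy, h3, hY]
      have h4 : 1 / ξ + 1 ≠ 0 := by rw [← h3]; exact hgξ1
      have h5 : 1 + ξ ≠ 0 := by rw [add_comm]; exact hξ1
      field_simp
      ring

end

end Vale.Agent.P297.H729
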