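import Vale.Agent.P297.H729.Emb

/-!
The relation `4 [z, w] = 0`.
-/

set_option linter.unusedSectionVars false
set_option linter.style.haveILetI false

open CategoryTheory AlgebraicGeometry IntermediateField Polynomial

namespace Vale.Agent.P297.H729

open Vale.Agent.P297 Vale.Agent.P297.H839 Vale.Agent.P297.H516

theorem map_WW {A B : Type} [Field A] [Algebra ℂ A] [Field B] [Algebra ℂ B] (φ : A →ₐ[ℂ] B)
    (h : ℂ) (T x z : A) : φ (WW h T x z) = WW h (φ T) (φ x) (φ z) := by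
  simp [WW, map_quadP, map_quartPhi]

theorem map_mm {A B : Type} [Field A] [Algebra ℂ A] [Field B] [Algebra ℂ B] (φ : A →ₐ[ℂ] B)
    (h : ℂ) (T x : A) : φ (mm h T x) = mm h (φ T) (φ x) := by
  simp [mm]

theorem map_star {A B : Type} [Field A] [Algebra ℂ A] [Field B] [Algebra ℂ B] (φ : A →ₐ[ℂ] B)
    {h : ℂ} {T x z : A} (hs : Star h T x z) : Star h (φ T) (φ x) (φ z) := by
  unfold Star at *
  have h1 := congrArg φ hs
  simp only [map_mul, map_sub, map_pow, map_quadP, map_quartPhi, map_mm, AlgHom.commutes] at h1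
  exact h1

section

variable {Ω : Type} [Field Ω] [Algebra ℂ Ω] {h : ℂ}

/-- the value of `w` -/
noncomputable def ww (h : ℂ) (T x y z : Ω) : Ω := WW h T x z / y

theorem const_ne_zero (h0 : h ≠ 0) : algebraMap ℂ Ω h ≠ 0 := by
  rw [Ne, map_eq_zero]; exact h0

theorem ww_sq' (h0 : h ≠ 0) {T x y z : Ω} (hf : Facts h T x) (hy : OnCurve h T x y)
    (hs : Star h T x z) : (ww h T x y z) ^ 2 = branchD h T z := by
  have hy0 := facts_y hf hy
  have h1 := ww_sq hs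
  unfold OnCurve at hy
  rw [← hy] at h1
  have h2 : WW h T x z ^ 2 = branchD h T z * y ^ 2 := by
    apply mul_left_cancel₀ (const_ne_zero (Ω := Ω) h0)
    rw [h1]
    ring
  unfold ww
  rw [div_pow, div_eq_iff (pow_ne_zero 2 hy0), h2]

theorem map_ww {T x y z : Ω} (g : Ω ≃ₐ[ℂ] Ω) :
    g (ww h T x y z) = ww h (g T) (g x) (g y) (g z) := by
  unfold ww
  rw [map_div₀]
  congr 1
  exact map_WW g.toAlgHom h T x z

theorem exists_quadP [IsAlgClosed Ω] (h : ℂ) (v : Ω) : ∃ z : Ω, quadP h z = v := by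
  obtain ⟨δ, hδ⟩ := IsAlgClosed.exists_pow_nat_eq (v - 1 + algebraMap ℂ Ω h ^ 2) two_pos
  refine ⟨algebraMap ℂ Ω h + δ, ?_⟩
  unfold quadP
  linear_combination hδ

theorem exists_star [IsAlgClosed Ω] {T x : Ω} (hf : Facts h T x) : ∃ z : Ω, Star h T x z := by
  obtain ⟨z, hz⟩ := exists_quadP h
    (quartPhi h T * (T * x - algebraMap ℂ Ω h) / (T ^ 2 * mm h T x))
  refine ⟨z, ?_⟩
  unfold Star
  rw [hz]
  have h1 := hf.T0
  have h2 := hf.m
  field_simp

theorem star_unique {T x z z' : Ω} (hf : Facts h T x) (hs : Star h T x z)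
    (hs' : Star h T x z') : z' = z ∨ z' = 2 * algebraMap ℂ Ω h - z := by
  unfold Star at hs hs'
  have h1 : T ^ 2 * mm h T x * ((z' - z) * (z' - (2 * algebraMap ℂ Ω h - z))) = 0 := by
    unfold quadP at hs hs'
    linear_combination hs - hs'
  have h2 := (mul_eq_zero.1 h1).resolve_left (mul_ne_zero (pow_ne_zero 2 hf.T0) hf.m)
  rcases mul_eq_zero.1 h2 with h3 | h3
  · left; exact sub_eq_zero.1 h3
  · right; exact sub_eq_zero.1 h3

theorem indep_inv {T x : Ω} (hx : AlgebraicIndependent ℂ ![T, x]) :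
    AlgebraicIndependent ℂ ![T, 1 / x] := by
  apply indep_of_alg hx
  apply isAlgebraic_mem
  have h1 := inv_mem (mem_range_right T (1 / x))
  have h2 : (1 / x)⁻¹ = x := by rw [one_div, inv_inv]
  rw [h2] at h1
  exact h1

theorem indep_neg {T x : Ω} (hx : AlgebraicIndependent ℂ ![T, x]) :
    AlgebraicIndependent ℂ ![T, -x] := by
  apply indep_of_alg hx
  apply isAlgebraic_mem
  have h1 := neg_mem (mem_range_right T (-x))
  rwa [neg_neg] at h1

theorem onCurve_inv {T x y e : Ω} (hx : x ≠ 0) (he : e ^ 2 = 1) (hy : OnCurve h T x y) :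
    OnCurve h T (1 / x) (e * y / x ^ 3) := by
  unfold OnCurve at *
  have h1 : algebraMap ℂ Ω h * (e * y / x ^ 3) ^ 2 = e ^ 2 * (algebraMap ℂ Ω h * y ^ 2) / x ^ 6 := by
    field_simp
  rw [h1, he, hy]
  generalize algebraMap ℂ Ω h = c
  field_simp
  ring

theorem onCurve_neg {T x y : Ω} (hy : OnCurve h T x y) : OnCurve (-h) T (-x) y := by
  unfold OnCurve at *
  rw [map_neg]
  linear_combination (-1) * hy

end

section

variable {K Ω : Type} [Field K] [Algebra ℂ K] [Field Ω] [Algebra ℂ Ω] [Algebra K Ω]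
  [IsScalarTower ℂ K Ω] {h : ℂ} {T₀ z₀ w₀ : K}

/-- the correspondence applied to the point `(x, y)` -/
noncomputable def gam (h : ℂ) (T₀ z₀ w₀ : K) (T x y z : Ω) : (K →ₐ[ℂ] Ω) →₀ ℤ :=
  br T₀ z₀ w₀ T z (ww h T x y z) +
    br T₀ z₀ w₀ T (2 * algebraMap ℂ Ω h - z) (ww h T x y (2 * algebraMap ℂ Ω h - z))

theorem gam_eq {T x y z z' : Ω} (hf : Facts h T x) (hs : Star h T x z) (hs' : Star h T x z') :
    gam h T₀ z₀ w₀ T x y z' = gam h T₀ z₀ w₀ T x y z := by
  rcases star_unique hf hs hs' with rfl | rfl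
  · rfl
  · unfold gam
    rw [sub_sub_cancel, add_comm]

theorem map_gam (hd : Data h T₀ z₀ w₀) (h0 : h ≠ 0) {T x y z : Ω} (g : Ω ≃ₐ[ℂ] Ω)
    (hgT : g T = T) (hx : AlgebraicIndependent ℂ ![T, x]) (hy : OnCurve h T x y)
    (hs : Star h T x z) :
    Finsupp.mapDomain (fun φ : K →ₐ[ℂ] Ω => g.toAlgHom.comp φ) (gam h T₀ z₀ w₀ T x y z) =
      gam h T₀ z₀ w₀ T (g x) (g y) (g z) := by
  have hf := facts h0 hx
  have hs' := star_conj hs
  have hgc : g (algebraMap ℂ Ω h) = algebraMap ℂ Ω h := g.commutes h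
  unfold gam
  rw [Finsupp.mapDomain_add, map_br hd g hgT (indep_xz h0 hx hs) (ww_sq' h0 hf hy hs),
    map_br hd g hgT (indep_xz h0 hx hs') (ww_sq' h0 hf hy hs'), map_ww, map_ww, hgT, map_sub,
    map_mul, hgc, map_ofNat]

theorem gam_stable (hd : Data h T₀ z₀ w₀) (h0 : h ≠ 0) {T x y z x' y' z' : Ω}
    (hx : AlgebraicIndependent ℂ ![T, x]) (hy : OnCurve h T x y) (hs : Star h T x z)
    (hx' : AlgebraicIndependent ℂ ![T, x']) (hy' : OnCurve h T x' y') (hs' : Star h T x' z')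
    (hL : ∃ L : IntermediateField ℂ Ω, IsRational L ∧ Algebra.IsAlgebraic L Ω ∧
      ∀ g : Ω ≃ₐ[ℂ] Ω, (∀ x ∈ L, g x = x) →
        g T = T ∧ ((g x = x ∧ g y = y ∧ g x' = x' ∧ g y' = y') ∨
          (g x = x' ∧ g y = y' ∧ g x' = x ∧ g y' = y))) :
    gam h T₀ z₀ w₀ T x y z + gam h T₀ z₀ w₀ T x' y' z' ∈ stableRelations K Ω := by
  obtain ⟨L, hL1, hL2, hL3⟩ := hL
  apply AddSubgroup.subset_closure
  refine ⟨L, hL1, hL2, fun g hg => ?_⟩
  obtain ⟨hgT, hcase⟩ := hL3 g hg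
  have hf := facts h0 hx
  have hf' := facts h0 hx'
  rw [Finsupp.mapDomain_add, map_gam hd h0 g hgT hx hy hs, map_gam hd h0 g hgT hx' hy' hs']
  have e1 := map_star g.toAlgHom hs
  have e2 := map_star g.toAlgHom hs'
  change Star h (g T) (g x) (g z) at e1
  change Star h (g T) (g x') (g z') at e2
  rw [hgT] at e1 e2
  rcases hcase with ⟨h1, h2, h3, h4⟩ | ⟨h1, h2, h3, h4⟩
  · rw [h1, h2, h3, h4]
    rw [h1] at e1
    rw [h3] at e2
    rw [gam_eq hf hs e1, gam_eq hf' hs' e2]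
  · rw [h1, h2, h3, h4]
    rw [h1] at e1
    rw [h3] at e2
    rw [gam_eq hf' hs' e1, gam_eq hf hs e2, add_comm]

/-- twice the correspondence is constant -/
theorem gam_double [IsAlgClosed Ω] (hd : Data h T₀ z₀ w₀) (h0 : h ≠ 0) (h1 : h ^ 2 ≠ 1)
    {T x y z : Ω}
    (halg : ∀ z : Ω, AlgebraicIndependent ℂ ![T, z] →
      ∀ u : Ω, IsAlgebraic (IntermediateField.adjoin ℂ (Set.range ![T, z])) u)
    (hx : AlgebraicIndependent ℂ ![T, x]) (hy : OnCurve h T x y) (hs : Star h T x z) :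
    (2 : ℤ) • gam h T₀ z₀ w₀ T x y z ∈ stableRelations K Ω := by
  have hf := facts h0 hx
  have hx0 := hf.x0
  have hxi := indep_inv hx
  have hfi := facts h0 hxi
  obtain ⟨z', hs'⟩ := exists_star hfi
  have hy1 : OnCurve h T (1 / x) (1 * y / x ^ 3) := onCurve_inv hx0 (by ring) hy
  have hy2 : OnCurve h T (1 / x) (-1 * y / x ^ 3) := onCurve_inv hx0 (by ring) hy
  have hr1 := gam_stable hd h0 hx hy hs hxi hy1 hs' (by
    obtain ⟨L, hL1, hL2, hL3⟩ := exists_rational_quotient h h0 h1 hx (halg x hx) hy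
    refine ⟨L, hL1, hL2, fun g hg => ?_⟩
    obtain ⟨hgT, hc⟩ := hL3 g hg
    refine ⟨hgT, ?_⟩
    rcases hc with ⟨hgx, hgy⟩ | ⟨hgx, hgy⟩
    · left
      simp only [map_div₀, map_mul, map_one, map_pow, hgx, hgy, and_self]
    · right
      refine ⟨hgx, ?_, ?_, ?_⟩
      · rw [hgy, one_mul]
      · rw [map_div₀, map_one, hgx, one_div_one_div]
      · rw [map_div₀, map_mul, map_one, map_pow, hgx, hgy]
        field_simp)
  have hr2 := gam_stable hd h0 hx hy hs hxi hy2 hs' (by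
    obtain ⟨L, hL1, hL2, hL3⟩ := exists_rational_quotient (-h) (neg_ne_zero.2 h0)
      (by rw [neg_sq]; exact h1) (indep_neg hx) (halg (-x) (indep_neg hx)) (onCurve_neg hy)
    refine ⟨L, hL1, hL2, fun g hg => ?_⟩
    obtain ⟨hgT, hc⟩ := hL3 g hg
    refine ⟨hgT, ?_⟩
    rcases hc with ⟨hgx, hgy⟩ | ⟨hgx, hgy⟩
    · left
      have hgx' : g x = x := by
        rw [map_neg] at hgx
        exact neg_injective hgx
      simp only [map_div₀, map_mul, map_neg, map_one, map_pow, hgx', hgy, and_self]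
    · right
      have hgx' : g x = 1 / x := by
        rw [map_neg, div_neg] at hgx
        exact neg_injective hgx
      have hgy' : g y = -1 * y / x ^ 3 := by
        rw [hgy]
        field_simp
      refine ⟨hgx', hgy', ?_, ?_⟩
      · rw [map_div₀, map_one, hgx', one_div_one_div]
      · rw [map_div₀, map_mul, map_neg, map_one, map_pow, hgx', hgy']
        field_simp)
  have hww : ∀ u : Ω, ww h T (1 / x) (-1 * y / x ^ 3) u = - ww h T (1 / x) (1 * y / x ^ 3) u := by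
    intro u
    unfold ww
    rw [neg_mul, neg_div, div_neg]
  have hs'' := star_conj hs'
  have hr3 := br_add_neg (T₀ := T₀) (z₀ := z₀) (w₀ := w₀) hd halg (indep_xz h0 hxi hs')
    (ww_sq' h0 hfi hy1 hs')
  have hr4 := br_add_neg (T₀ := T₀) (z₀ := z₀) (w₀ := w₀) hd halg (indep_xz h0 hxi hs'')
    (ww_sq' h0 hfi hy1 hs'')
  have hsum : (2 : ℤ) • gam h T₀ z₀ w₀ T x y z =
      (gam h T₀ z₀ w₀ T x y z + gam h T₀ z₀ w₀ T (1 / x) (1 * y / x ^ 3) z') +
      (gam h T₀ z₀ w₀ T x y z + gam h T₀ z₀ w₀ T (1 / x) (-1 * y / x ^ 3) z') -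
      (br T₀ z₀ w₀ T z' (ww h T (1 / x) (1 * y / x ^ 3) z') +
        br T₀ z₀ w₀ T z' (- ww h T (1 / x) (1 * y / x ^ 3) z')) -
      (br T₀ z₀ w₀ T (2 * algebraMap ℂ Ω h - z')
          (ww h T (1 / x) (1 * y / x ^ 3) (2 * algebraMap ℂ Ω h - z')) +
        br T₀ z₀ w₀ T (2 * algebraMap ℂ Ω h - z')
          (- ww h T (1 / x) (1 * y / x ^ 3) (2 * algebraMap ℂ Ω h - z'))) := by
    conv_rhs =>
      rw [show gam h T₀ z₀ w₀ T (1 / x) (-1 * y / x ^ 3) z' =
        br T₀ z₀ w₀ T z' (- ww h T (1 / x) (1 * y / x ^ 3) z') +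
        br T₀ z₀ w₀ T (2 * algebraMap ℂ Ω h - z')
          (- ww h T (1 / x) (1 * y / x ^ 3) (2 * algebraMap ℂ Ω h - z')) by
        unfold gam
        rw [hww, hww]]
      rw [show gam h T₀ z₀ w₀ T (1 / x) (1 * y / x ^ 3) z' =
        br T₀ z₀ w₀ T z' (ww h T (1 / x) (1 * y / x ^ 3) z') +
        br T₀ z₀ w₀ T (2 * algebraMap ℂ Ω h - z')
          (ww h T (1 / x) (1 * y / x ^ 3) (2 * algebraMap ℂ Ω h - z')) from rfl]
    rw [two_smul]
    abel
  rw [hsum]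
  exact sub_mem (sub_mem (add_mem hr1 hr2) hr3) hr4

/-- four times a point is constant -/
theorem four_br [IsAlgClosed Ω] (hd : Data h T₀ z₀ w₀) (h0 : h ≠ 0) (h1 : h ^ 2 ≠ 1)
    {T z w : Ω}
    (halg : ∀ z : Ω, AlgebraicIndependent ℂ ![T, z] →
      ∀ u : Ω, IsAlgebraic (IntermediateField.adjoin ℂ (Set.range ![T, z])) u)
    (hz : AlgebraicIndependent ℂ ![T, z]) (hw : w ^ 2 = branchD h T z) :
    (4 : ℤ) • br T₀ z₀ w₀ T z w ∈ stableRelations K Ω := by
  haveI : CharZero Ω := charZero_of_injective_algebraMap (algebraMap ℂ Ω).injective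
  have hfz := facts h0 hz
  have hc0 := const_ne_zero (Ω := Ω) h0
  have hD0 : branchD h T z ≠ 0 := by
    unfold branchD
    exact mul_ne_zero (mul_ne_zero (mul_ne_zero hfz.phi hfz.P) hfz.PP) hfz.PH
  have hw0 : w ≠ 0 := by
    rintro rfl
    rw [zero_pow two_ne_zero] at hw
    exact hD0 hw.symm
  set c := algebraMap ℂ Ω h with hc
  set P := quadP h z with hP
  set Φ := quartPhi h T with hΦ
  have hP0 : P ≠ 0 := hfz.P
  have hΦ0 : Φ ≠ 0 := hfz.phi
  have hT0 : T ≠ 0 := hfz.T0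
  have ha : c * T ^ 2 * P ≠ 0 := mul_ne_zero (mul_ne_zero hc0 (pow_ne_zero 2 hT0)) hP0
  obtain ⟨δ, hδ⟩ := IsAlgClosed.exists_pow_nat_eq
    ((T ^ 2 * P * (T ^ 3 - (1 + c ^ 2) * T) - Φ * T) ^ 2 - 4 * (c * T ^ 2 * P) * (c * Φ)) two_pos
  set b := T ^ 2 * P * (T ^ 3 - (1 + c ^ 2) * T) - Φ * T with hb
  -- the two points `x`
  have hroot : ∀ x : Ω, (c * T ^ 2 * P) * x ^ 2 + b * x + c * Φ = 0 → Star h T x z := by
    intro x hx
    unfold Star mm
    rw [← hc, ← hP, ← hΦ]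
    rw [hb] at hx
    linear_combination (-1) * hx
  set x₁ := (-b + δ) / (2 * (c * T ^ 2 * P)) with hx₁
  set x₂ := (-b - δ) / (2 * (c * T ^ 2 * P)) with hx₂
  have hsum : (c * T ^ 2 * P) * (x₁ + x₂) = -b := by
    rw [hx₁, hx₂]
    field_simp
    ring
  have hprod : (c * T ^ 2 * P) * (x₁ * x₂) = c * Φ := by
    rw [hx₁, hx₂]
    have h2 : (-b + δ) / (2 * (c * T ^ 2 * P)) * ((-b - δ) / (2 * (c * T ^ 2 * P))) =
      (b ^ 2 - δ ^ 2) / (4 * (c * T ^ 2 * P) ^ 2) := by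
      field_simp
      ring
    rw [h2, hδ]
    field_simp
    ring
  have hs₁ : Star h T x₁ z := hroot x₁ (by linear_combination x₁ * hsum - hprod)
  have hs₂ : Star h T x₂ z := hroot x₂ (by linear_combination x₂ * hsum - hprod)
  have key : ∀ x : Ω, Star h T x z → AlgebraicIndependent ℂ ![T, x] ∧ T * x * z - 1 ≠ 0 ∧
      WW h T x z ≠ 0 ∧ OnCurve h T x (WW h T x z / w) := by
    intro x hs
    have hx := indep_zx h0 hz hs
    have hf := facts h0 hx
    have hne : T * x * z - 1 ≠ 0 := by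
      intro h2
      have h3 := star_b hs
      rw [h2, zero_pow two_ne_zero, mul_zero] at h3
      exact mul_ne_zero (mul_ne_zero (mul_ne_zero hf.T0 hf.x0) hf.G) hfz.PP h3.symm
    have hW : WW h T x z ≠ 0 := by
      unfold WW
      exact mul_ne_zero (mul_ne_zero (mul_ne_zero (mul_ne_zero (mul_ne_zero hT0 hΦ0) hP0) hf.A)
        hf.B) hne
    refine ⟨hx, hne, hW, ?_⟩
    have h2 := ww_sq hs
    unfold OnCurve
    rw [div_pow, ← mul_div_assoc, h2, hw, mul_comm (branchD h T z), mul_div_assoc,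
      div_self hD0, mul_one]
  obtain ⟨hi₁, hn₁, hW₁, hy₁⟩ := key x₁ hs₁
  obtain ⟨hi₂, hn₂, hW₂, hy₂⟩ := key x₂ hs₂
  have hg₁ := gam_double (T₀ := T₀) (z₀ := z₀) (w₀ := w₀) hd h0 h1 halg hi₁ hy₁ hs₁
  have hg₂ := gam_double (T₀ := T₀) (z₀ := z₀) (w₀ := w₀) hd h0 h1 halg hi₂ hy₂ hs₂
  have hww : ∀ x : Ω, WW h T x z ≠ 0 → ww h T x (WW h T x z / w) z = w := by
    intro x hW
    unfold ww
    field_simp
  have hww' : ∀ x : Ω, WW h T x z ≠ 0 → T * x * z - 1 ≠ 0 →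
      ww h T x (WW h T x z / w) (2 * c - z) = w * ((T * x * (2 * c - z) - 1) / (T * x * z - 1)) := by
    intro x hW hne
    have e : WW h T x (2 * c - z) * (T * x * z - 1) = WW h T x z * (T * x * (2 * c - z) - 1) := by
      unfold WW
      rw [hc, quadP_conj]
      ring
    unfold ww
    rw [div_div_eq_mul_div, div_eq_iff hW, mul_assoc, div_mul_eq_mul_div, eq_comm,
      ← mul_div_assoc, div_eq_iff hne]
    linear_combination (-w) * e
  have hneg : ww h T x₂ (WW h T x₂ z / w) (2 * c - z) =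
      - ww h T x₁ (WW h T x₁ z / w) (2 * c - z) := by
    rw [hww' x₁ hW₁ hn₁, hww' x₂ hW₂ hn₂, ← mul_neg]
    congr 1
    rw [← neg_div, div_eq_div_iff hn₂ hn₁]
    have h2 : (c * T ^ 2 * P) * ((T * x₂ * (2 * c - z) - 1) * (T * x₁ * z - 1) +
        (T * x₁ * (2 * c - z) - 1) * (T * x₂ * z - 1)) = 0 := by
      have hPz : z * (2 * c - z) = 1 - P := by
        rw [hP]
        unfold quadP
        rw [← hc]
        ring
      have h3 : (c * T ^ 2 * P) * ((T * x₂ * (2 * c - z) - 1) * (T * x₁ * z - 1) +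
        (T * x₁ * (2 * c - z) - 1) * (T * x₂ * z - 1)) =
        2 * T ^ 2 * (z * (2 * c - z)) * ((c * T ^ 2 * P) * (x₁ * x₂)) -
          2 * c * T * ((c * T ^ 2 * P) * (x₁ + x₂)) + 2 * (c * T ^ 2 * P) := by ring
      rw [h3, hPz, hprod, hsum, hb]
      have hΦe : Φ = T ^ 4 - (1 + c ^ 2) * T ^ 2 + 1 := rfl
      linear_combination (-2 * c * T ^ 2 * P) * hΦe
    have h4 := (mul_eq_zero.1 h2).resolve_left ha
    linear_combination h4
  have hs' : Star h T x₁ (2 * c - z) := star_conj hs₁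
  have hf₁ := facts h0 hi₁
  have hr := br_add_neg (T₀ := T₀) (z₀ := z₀) (w₀ := w₀) hd halg (indep_xz h0 hi₁ hs')
    (ww_sq' h0 hf₁ hy₁ hs')
  have hfin : (4 : ℤ) • br T₀ z₀ w₀ T z w =
      (2 : ℤ) • gam h T₀ z₀ w₀ T x₁ (WW h T x₁ z / w) z +
      (2 : ℤ) • gam h T₀ z₀ w₀ T x₂ (WW h T x₂ z / w) z -
      (2 : ℤ) • (br T₀ z₀ w₀ T (2 * c - z) (ww h T x₁ (WW h T x₁ z / w) (2 * c - z)) +
        br T₀ z₀ w₀ T (2 * c - z) (- ww h T x₁ (WW h T x₁ z / w) (2 * c - z))) := by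
    unfold gam
    rw [← hc, hneg, hww x₁ hW₁, hww x₂ hW₂]
    simp only [smul_add, show (4 : ℤ) = 2 + 2 from rfl, add_smul]
    abel
  rw [hfin]
  exact sub_mem (add_mem hg₁ hg₂) (AddSubgroup.zsmul_mem _ hr 2)

end

end Vale.Agent.P297.H729
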