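import Vale.Agent.P297.H516.Theta
import Vale.Agent.P297.H839.Crit
import Mathlib.Algebra.Module.Submodule.Union
import Mathlib.LinearAlgebra.Lagrange
import Mathlib.FieldTheory.Galois.Infinite

/-!
Cycles of embeddings that are defined over a purely transcendental field.
-/

set_option linter.unusedSectionVars false
set_option linter.style.haveILetI false

open CategoryTheory AlgebraicGeometry IntermediateField Polynomial

namespace Vale.Agent.P297.H729

open Vale.Agent.P297 Vale.Agent.P297.H839 Vale.Agent.P297.H516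

/-- The group of relations between `ℂ`-embeddings `K → Ω` generated by the finite cycles of
embeddings that are invariant under all automorphisms of `Ω` over a purely transcendental subfield
`L` over which `Ω` is algebraic. -/
noncomputable def stableRelations (K Ω : Type) [Field K] [Algebra ℂ K] [Field Ω] [Algebra ℂ Ω] :
    AddSubgroup ((K →ₐ[ℂ] Ω) →₀ ℤ) :=
  AddSubgroup.closure {v | ∃ L : IntermediateField ℂ Ω, IsRational L ∧ Algebra.IsAlgebraic L Ω ∧
    ∀ g : Ω ≃ₐ[ℂ] Ω, (∀ x ∈ L, g x = x) →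
      Finsupp.mapDomain (fun φ : K →ₐ[ℂ] Ω => g.toAlgHom.comp φ) v = v}

theorem mem_of_fixed {Ω : Type} [Field Ω] [Algebra ℂ Ω] [IsAlgClosed Ω]
    (L : IntermediateField ℂ Ω) (hL : Algebra.IsAlgebraic L Ω) (y : Ω)
    (hy : ∀ g : Ω ≃ₐ[ℂ] Ω, (∀ x ∈ L, g x = x) → g y = y) : y ∈ L := by
  haveI := hL
  haveI : CharZero L := charZero_of_injective_algebraMap (algebraMap ℂ L).injective
  haveI : IsAlgClosure L Ω := ⟨inferInstance, inferInstance⟩
  haveI : IsGalois L Ω := inferInstance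
  have h1 : y ∈ Set.range (algebraMap L Ω) := by
    rw [InfiniteGalois.mem_range_algebraMap_iff_fixed]
    intro g
    exact hy (g.restrictScalars ℂ) (fun x hx => g.commutes ⟨x, hx⟩)
  obtain ⟨z, rfl⟩ := h1
  exact z.2

section

variable {K Ω : Type} [Field K] [Algebra ℂ K] [Field Ω] [Algebra ℂ Ω]

theorem exists_separating (T : Finset (K →ₐ[ℂ] Ω)) :
    ∃ κ : K, ∀ φ ∈ T, ∀ ψ ∈ T, φ κ = ψ κ → φ = ψ := by
  classical
  let p : {q : T × T // q.1 ≠ q.2} → Submodule ℂ K := fun q =>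
    LinearMap.ker (q.1.1.1.toLinearMap - q.1.2.1.toLinearMap)
  have hp : ∀ q, p q ≠ ⊤ := by
    rintro ⟨⟨⟨φ, hφ⟩, ⟨ψ, hψ⟩⟩, hne⟩ htop
    apply hne
    apply Subtype.ext
    apply AlgHom.ext
    intro k
    have h1 : k ∈ p ⟨⟨⟨φ, hφ⟩, ⟨ψ, hψ⟩⟩, hne⟩ := by rw [htop]; trivial
    have h2 : φ k - ψ k = 0 := h1
    exact sub_eq_zero.1 h2
  obtain ⟨κ, hκ⟩ := Submodule.exists_forall_notMem_of_forall_ne_top p hp
  refine ⟨κ, fun φ hφ ψ hψ h => ?_⟩
  by_contra hne
  refine hκ ⟨⟨⟨φ, hφ⟩, ⟨ψ, hψ⟩⟩, fun h0 => hne (congrArg Subtype.val h0)⟩ ?_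
  change φ κ - ψ κ = 0
  rw [h, sub_self]

variable {S : Scheme.{0}} {f : S ⟶ Spec (.of ℂ)} [IsProper f] {C : Type} [CommRing C] [Algebra ℂ C]
  [Algebra.FiniteType ℂ C] {j : Spec (.of C) ⟶ S}
  {hj : j ≫ f = Spec.map (CommRingCat.ofHom (algebraMap ℂ C))}

theorem good_stable_set [IsAlgClosed Ω] (L : IntermediateField ℂ Ω) (hLr : IsRational L)
    (hLa : Algebra.IsAlgebraic L Ω) (T : Finset (K →ₐ[ℂ] Ω))
    (hT : ∀ g : Ω ≃ₐ[ℂ] Ω, (∀ x ∈ L, g x = x) → ∀ φ ∈ T, g.toAlgHom.comp φ ∈ T)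
    (i : C →ₐ[ℂ] K) :
    ∑ φ ∈ T, Finsupp.single (φ.comp i) (1 : ℤ) ∈ Good f j hj (Rat f) Ω := by
  classical
  obtain ⟨d, x, hx, hLx⟩ := hLr
  obtain ⟨κ, hκ⟩ := exists_separating T
  let g0 : MvPolynomial (Fin d) ℂ →ₐ[ℂ] Ω := MvPolynomial.aeval x
  have hg0 : Function.Injective g0 := hx
  have hinj : Function.Injective (toN g0) := by
    rw [injective_iff_map_eq_zero]
    intro r hr
    obtain ⟨⟨u, v⟩, huv⟩ := IsLocalization.surj (nker g0) r
    have h1 := congrArg (toN g0) huv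
    rw [map_mul, hr, zero_mul, toN_algebraMap] at h1
    have h2 : u = 0 := hg0 (by rw [← h1, map_zero])
    have h3 : r * algebraMap (MvPolynomial (Fin d) ℂ) (Loc g0) v = 0 := by
      rw [show r * algebraMap (MvPolynomial (Fin d) ℂ) (Loc g0) v = _ from huv, h2, map_zero]
    exact (IsLocalization.map_units (Loc g0) v).mul_left_eq_zero.1 h3
  have hlift : ∀ y ∈ L, ∃ r : Loc g0, toN g0 r = y := by
    intro y hy
    rw [hLx, IntermediateField.mem_adjoin_range_iff] at hy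
    obtain ⟨a, b, hab⟩ := hy
    by_cases hb : MvPolynomial.aeval x b = 0
    · refine ⟨0, ?_⟩
      rw [hab, hb, div_zero, map_zero]
    · have hu : IsUnit (algebraMap (MvPolynomial (Fin d) ℂ) (Loc g0) b) :=
        IsLocalization.map_units (Loc g0) (⟨b, mem_nker.2 hb⟩ : nker g0)
      obtain ⟨e, he⟩ := hu
      refine ⟨algebraMap (MvPolynomial (Fin d) ℂ) (Loc g0) a * ((e⁻¹ : (Loc g0)ˣ) : Loc g0), ?_⟩
      rw [hab, eq_div_iff hb]
      change toN g0 _ * g0 b = g0 a
      rw [← toN_algebraMap g0 b, ← map_mul, ← he, mul_assoc, Units.inv_mul, mul_one,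
        toN_algebraMap]
  have hliftP : ∀ Q : Polynomial Ω, (∀ g : Ω ≃ₐ[ℂ] Ω, (∀ x ∈ L, g x = x) →
      Q.map (g : Ω →+* Ω) = Q) → ∃ Q' : (Loc g0)[X], Q'.map (toN g0).toRingHom = Q := by
    intro Q hQ
    have h1 : Q ∈ Polynomial.lifts (toN g0).toRingHom := by
      rw [Polynomial.lifts_iff_coeff_lifts]
      intro m
      have h2 : Q.coeff m ∈ L := by
        refine mem_of_fixed L hLa _ fun g hg => ?_
        have h3 := congrArg (fun q => q.coeff m) (hQ g hg)
        simp only [Polynomial.coeff_map] at h3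
        exact h3
      obtain ⟨r, hr⟩ := hlift _ h2
      exact ⟨r, hr⟩
    exact (Polynomial.mem_lifts _).1 h1
  -- the image of `T`
  have himage : ∀ g : Ω ≃ₐ[ℂ] Ω, (∀ x ∈ L, g x = x) →
      T.image (fun φ => g.toAlgHom.comp φ) = T := by
    intro g hg
    apply Finset.eq_of_subset_of_card_le
    · intro ψ hψ
      obtain ⟨φ, hφ, rfl⟩ := Finset.mem_image.1 hψ
      exact hT g hg φ hφ
    · rw [Finset.card_image_of_injective]
      intro φ ψ h
      apply AlgHom.ext
      intro k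
      exact g.injective (DFunLike.congr_fun h k)
  have hvs : Set.InjOn (fun φ : K →ₐ[ℂ] Ω => φ κ) (T : Set (K →ₐ[ℂ] Ω)) :=
    fun φ hφ ψ hψ h => hκ φ hφ ψ hψ h
  -- interpolation polynomials
  have hinter : ∀ k : K, ∃ Q' : (Loc g0)[X], ∀ φ ∈ T,
      (Q'.map (toN g0).toRingHom).eval (φ κ) = φ k := by
    intro k
    let Q : Polynomial Ω := Lagrange.interpolate T (fun φ => φ κ) (fun φ => φ k)
    have hQe : ∀ φ ∈ T, Q.eval (φ κ) = φ k := fun φ hφ =>
      Lagrange.eval_interpolate_at_node (fun φ : K →ₐ[ℂ] Ω => φ k) hvs hφ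
    obtain ⟨Q', hQ'⟩ := hliftP Q (by
      intro g hg
      apply Lagrange.eq_interpolate_of_eval_eq (fun φ : K →ₐ[ℂ] Ω => φ k) hvs
      · refine lt_of_le_of_lt Polynomial.degree_map_le ?_
        exact Lagrange.degree_interpolate_lt _ hvs
      · intro ψ hψ
        rw [← himage g hg, Finset.mem_image] at hψ
        obtain ⟨φ, hφ, rfl⟩ := hψ
        change (Q.map (g : Ω →+* Ω)).eval ((g : Ω →+* Ω) (φ κ)) = g (φ k)
        rw [Polynomial.eval_map, Polynomial.eval₂_hom, hQe φ hφ]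
        rfl)
    refine ⟨Q', fun φ hφ => ?_⟩
    rw [hQ', hQe φ hφ]
  obtain ⟨F, hF⟩ := hliftP (∏ φ ∈ T, (X - Polynomial.C (φ κ))) (by
    intro g hg
    rw [Polynomial.map_prod]
    conv_rhs => rw [← himage g hg]
    rw [Finset.prod_image]
    · refine Finset.prod_congr rfl fun φ _ => ?_
      rw [Polynomial.map_sub, Polynomial.map_X, Polynomial.map_C]
      rfl
    · intro φ _ ψ _ h
      apply AlgHom.ext
      intro k
      exact g.injective (DFunLike.congr_fun h k))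
  have hFm : F.Monic := by
    have h1 : (F.map (toN g0).toRingHom).Monic := by
      rw [hF]
      exact Polynomial.monic_prod_of_monic _ _ (fun φ _ => Polynomial.monic_X_sub_C _)
    exact Polynomial.monic_of_injective (f := (toN g0).toRingHom) hinj h1
  let e : T ≃ Fin T.card := T.equivFin
  let Φ : Fin T.card → (K →ₐ[ℂ] Ω) := fun m => (e.symm m).1
  have hΦT : ∀ m, Φ m ∈ T := fun m => (e.symm m).2
  let a : Fin T.card → Ω := fun m => Φ m κ
  have ha : Function.Injective a := by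
    intro m m' h
    have h1 := hκ _ (hΦT m) _ (hΦT m') h
    exact e.symm.injective (Subtype.ext h1)
  have hprod : F.map (toN g0).toRingHom = ∏ m, (X - Polynomial.C (a m)) := by
    rw [hF, ← Finset.prod_coe_sort]
    exact (Equiv.prod_comp e.symm (fun φ : T => (X - Polynomial.C (φ.1 κ)))).symm
  have hroot : ∀ m, F.eval₂ (toN g0).toRingHom (a m) = 0 := by
    intro m
    rw [← Polynomial.eval_map, hprod, Polynomial.eval_prod]
    apply Finset.prod_eq_zero (Finset.mem_univ m)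
    simp
  let ev : Fin T.card → (AdjoinRoot F →ₐ[ℂ] Ω) := fun m =>
    AdjoinRoot.liftAlgHom F (toN g0) (a m) (hroot m)
  have hevmk : ∀ m Q, ev m (AdjoinRoot.mk F Q) = Q.eval₂ (toN g0).toRingHom (a m) := fun m Q =>
    AdjoinRoot.liftAlgHom_mk _ _ _ _ _
  let E : AdjoinRoot F →ₐ[ℂ] (Fin T.card → Ω) := AlgHom.pi ev
  have hE : Function.Injective E := by
    rw [injective_iff_map_eq_zero]
    intro y hy
    obtain ⟨Q, rfl⟩ := AdjoinRoot.mk_surjective y
    rw [AdjoinRoot.mk_eq_zero, ← Polynomial.map_dvd_map (toN g0).toRingHom hinj hFm, hprod]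
    apply Finset.prod_dvd_of_coprime
    · intro m _ m' _ hne
      exact Polynomial.pairwise_coprime_X_sub_C ha hne
    · intro m _
      rw [Polynomial.dvd_iff_isRoot, Polynomial.IsRoot, Polynomial.eval_map, ← hevmk]
      exact congrFun hy m
  let ΦK : K →ₐ[ℂ] (Fin T.card → Ω) := AlgHom.pi Φ
  have hrange : ∀ k, ΦK k ∈ E.range := by
    intro k
    obtain ⟨Q', hQ'⟩ := hinter k
    refine ⟨AdjoinRoot.mk F Q', ?_⟩
    funext m
    change ev m (AdjoinRoot.mk F Q') = Φ m k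
    rw [hevmk, ← Polynomial.eval_map]
    exact hQ' _ (hΦT m)
  let eq := AlgEquiv.ofInjective E hE
  let θ : K →ₐ[ℂ] AdjoinRoot F := eq.symm.toAlgHom.comp (ΦK.codRestrict E.range hrange)
  have hθ : ∀ m, (ev m).comp (θ.comp i) = (Φ m).comp i := by
    intro m
    apply AlgHom.ext
    intro c
    have h1 := eq.apply_symm_apply (ΦK.codRestrict E.range hrange (i c))
    exact congrFun (congrArg Subtype.val h1) m
  have hfin := good_roots (f := f) (j := j) (hj := hj) F hFm a ha hprod (θ.comp i) ev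
    (by
      intro m r
      rw [← AdjoinRoot.mk_C, hevmk, eval₂_C]
      rfl) (by
      intro m
      rw [← AdjoinRoot.mk_X, hevmk, eval₂_X])
  simp only [hθ] at hfin
  have hlast : ∑ m, Finsupp.single ((Φ m).comp i) (1 : ℤ) =
      ∑ φ ∈ T, Finsupp.single (φ.comp i) (1 : ℤ) := by
    rw [← Finset.sum_coe_sort T (fun φ => Finsupp.single (φ.comp i) (1 : ℤ))]
    exact Equiv.sum_comp e.symm (fun φ : T => Finsupp.single (φ.1.comp i) (1 : ℤ))
  rw [← hlast]
  exact hfin

/-- Invariant cycles specialise. -/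
theorem good_of_fixed [IsAlgClosed Ω] (L : IntermediateField ℂ Ω) (hLr : IsRational L)
    (hLa : Algebra.IsAlgebraic L Ω) (v : (K →ₐ[ℂ] Ω) →₀ ℤ)
    (hv : ∀ g : Ω ≃ₐ[ℂ] Ω, (∀ x ∈ L, g x = x) →
      Finsupp.mapDomain (fun φ : K →ₐ[ℂ] Ω => g.toAlgHom.comp φ) v = v)
    (i : C →ₐ[ℂ] K) :
    Finsupp.mapDomain (fun φ : K →ₐ[ℂ] Ω => φ.comp i) v ∈ Good f j hj (Rat f) Ω := by
  classical
  have hvg : ∀ g : Ω ≃ₐ[ℂ] Ω, (∀ x ∈ L, g x = x) → ∀ φ : K →ₐ[ℂ] Ω,
      v (g.toAlgHom.comp φ) = v φ := by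
    intro g hg φ
    have hinj : Function.Injective (fun φ : K →ₐ[ℂ] Ω => g.toAlgHom.comp φ) := by
      intro φ ψ h
      apply AlgHom.ext
      intro k
      exact g.injective (DFunLike.congr_fun h k)
    have h1 := Finsupp.mapDomain_apply hinj v φ
    rw [hv g hg] at h1
    exact h1
  have h1 : Finsupp.mapDomain (fun φ : K →ₐ[ℂ] Ω => φ.comp i) v =
      ∑ c ∈ v.support.image v, c • ∑ φ ∈ v.support with v φ = c,
        Finsupp.single (φ.comp i) (1 : ℤ) := by
    rw [Finsupp.mapDomain, Finsupp.sum, ← Finset.sum_fiberwise_of_maps_to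
      (s := v.support) (t := v.support.image v) (g := v)
      (fun φ hφ => Finset.mem_image_of_mem _ hφ)]
    refine Finset.sum_congr rfl fun c _ => ?_
    rw [Finset.smul_sum]
    refine Finset.sum_congr rfl fun φ hφ => ?_
    rw [(Finset.mem_filter.1 hφ).2, Finsupp.smul_single, smul_eq_mul, mul_one]
  rw [h1]
  refine AddSubgroup.sum_mem _ fun c _ => AddSubgroup.zsmul_mem _ ?_ _
  refine good_stable_set L hLr hLa _ ?_ i
  intro g hg φ hφ
  rw [Finset.mem_filter, Finsupp.mem_support_iff] at hφ ⊢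
  rw [hvg g hg]
  exact hφ

/-- Stable relations specialise. -/
theorem good_of_stable [IsAlgClosed Ω] {v : (K →ₐ[ℂ] Ω) →₀ ℤ} (hv : v ∈ stableRelations K Ω)
    (i : C →ₐ[ℂ] K) :
    Finsupp.mapDomain (fun φ : K →ₐ[ℂ] Ω => φ.comp i) v ∈ Good f j hj (Rat f) Ω := by
  unfold stableRelations at hv
  induction hv using AddSubgroup.closure_induction with
  | mem v hv =>
    obtain ⟨L, hLr, hLa, hv⟩ := hv
    exact good_of_fixed L hLr hLa v hv i
  | zero =>
    rw [Finsupp.mapDomain_zero]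
    exact AddSubgroup.zero_mem _
  | add v w _ _ h1 h2 =>
    rw [Finsupp.mapDomain_add]
    exact AddSubgroup.add_mem _ h1 h2
  | neg v _ h1 =>
    have h2 : Finsupp.mapDomain (fun φ : K →ₐ[ℂ] Ω => φ.comp i) =
        Finsupp.mapDomain.addMonoidHom (fun φ : K →ₐ[ℂ] Ω => φ.comp i) (M := ℤ) := rfl
    rw [h2, map_neg, ← h2]
    exact AddSubgroup.neg_mem _ h1

end

/-- **Criterion, stable form.** A relation `n [K → Ω] = combination of cycles defined over purely
transcendental fields` gives `n ([x] - [y]) = 0`. -/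
theorem criterion_stable {K Ω : Type} [Field K] [Algebra ℂ K] [Field Ω] [Algebra ℂ Ω]
    [IsAlgClosed Ω] [Algebra K Ω] [IsScalarTower ℂ K Ω] [Algebra.IsAlgebraic K Ω] (n : ℤ)
    (hn : Finsupp.single (IsScalarTower.toAlgHom ℂ K Ω) n ∈ stableRelations K Ω)
    {S : Scheme.{0}} [IsIntegral S] (f : S ⟶ Spec (.of ℂ)) [IsProper f]
    (hS : IsFunctionFieldOf f K) (x y : ClosedPt S) :
    n • (Finsupp.single x (1 : ℤ) - Finsupp.single y 1) ∈ Rat f := by
  obtain ⟨U, hU, hne, hi⟩ := exists_chart f hS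
  letI := chartAlg f hU
  haveI := chart_finiteType f hU
  obtain ⟨i, hi, hfrac⟩ := hi
  have hm : Function.Injective (IsScalarTower.toAlgHom ℂ K Ω) := (algebraMap K Ω).injective
  refine global_of_good f hU n (Rat f) le_rfl ((IsScalarTower.toAlgHom ℂ K Ω).comp i)
    (hm.comp hi) ?_ ?_ x y
  · intro y
    refine exists_poly_of_algebraic i.toRingHom hi hfrac
      (IsScalarTower.toAlgHom ℂ K Ω).toRingHom y ?_
    obtain ⟨p, hp0, hp⟩ := Algebra.IsAlgebraic.isAlgebraic (R := K) y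
    exact ⟨p, hp0, hp⟩
  · have h1 := good_of_stable (f := f) (j := hU.fromSpec) (hj := chart_hj f hU) hn i
    rw [Finsupp.mapDomain_single] at h1
    exact h1

/-- **Criterion, stable and integral form.** -/
theorem criterion_stable_one {K Ω : Type} [Field K] [Algebra ℂ K] [Field Ω] [Algebra ℂ Ω]
    [IsAlgClosed Ω] [Algebra K Ω] [IsScalarTower ℂ K Ω] [Algebra.IsAlgebraic K Ω]
    (hK : IsDouble K) (k : ℕ)
    (hn : Finsupp.single (IsScalarTower.toAlgHom ℂ K Ω) ((2 : ℤ) ^ k) ∈ stableRelations K Ω)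
    {S : Scheme.{0}} [IsIntegral S] (f : S ⟶ Spec (.of ℂ)) [IsProper f]
    (hS : IsFunctionFieldOf f K) (x y : ClosedPt S) : RatEquiv f x y :=
  one_of_pow_two f hS hK k (criterion_stable _ hn f hS) x y

end Vale.Agent.P297.H729
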